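import Vale.Agent.P265.M.Smooth

/-!
P265 M/Flow (TASK). Helper names start with mflow_.
For `z.2 ≠ 0`: `H (t, lf (pr z)) = H (t, z)` and `pr (φ (t, lf (pr z))) = pr (φ (t, z))` (`rel_lf`, `invH`, `invφ`, `Rel7.pr_eq`). Smoothness at `(t, m)`: near it `q.2 = pr (sig m q.2)` (`pr_sig_nhds`), so the maps agree with
`H (q.1, sig m q.2)` and `pr (φ (q.1, sig m q.2))` (`contMDiffAt_sig`, `ContMDiffAt.prodMk_space`, `contMDiffAt_pr`, `ContMDiffAt.congr_of_eventuallyEq`).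
ode at `x`, `z = lf x`, `z' = φ (t, z)`: rewrite with `hβ`; `mfderiv_pr_comp` for `τ ↦ φ (τ, z)` gives `dpr z' (fderiv φ (t, z) (1, 0))`; `w = dpr z' b` (`dpr_surj`), `bet_dpr`, `h.ode`;
`mfderiv_comp` for `(fun m => H (t, lf m)) ∘ pr`, which equals `fun z => H (t, z)` near `z'` (`Om_nhds`, `Filter.EventuallyEq.mfderiv_eq`, `mfderiv_eq_fderiv`).
NondegFix at `x = pr z`, `z = lf x`: `φ (1, z) = z` by `h.fix`; `v = dpr z a`; differentiate `f ∘ pr = pr ∘ φ (1, ·)` near `z`: `dpr z (dφ (0, a) - a) = 0`, `dpr_ker` twice. `Fix0 ⊆ pr '' S` (`Set.encard_image_le`, `Set.encard_coe_eq_coe_finsetCard`).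
Tangent spaces are `E6` by definition: use `change`/`show` with `dpr`, `bet` (plain types) before rewriting base points.
-/

namespace Vale.Agent.P265

open scoped Manifold ContDiff Topology
open Set Filter

noncomputable section

theorem mflow_nhds {t : ℝ} {z : E7} (hz : z.2 ≠ 0) : {w : ℝ × E7 | w.2.2 ≠ 0} ∈ 𝓝 (t, z) :=
  (isOpen_Om.preimage continuous_snd).mem_nhds hz

theorem mflow_lift (q : ℝ × Mf) : ContMDiffAt (𝓘(ℝ, ℝ).prod 𝓘(ℝ, E6)) 𝓘(ℝ, ℝ × E7) ∞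
    (fun p : ℝ × Mf => (p.1, sig q.2 p.2)) q :=
  contMDiffAt_fst.prodMk_space ((contMDiffAt_sig q.2).comp q contMDiffAt_snd)

theorem mflow_near (q : ℝ × Mf) : ∀ᶠ p : ℝ × Mf in 𝓝 q, pr (sig q.2 p.2) = p.2 :=
  continuous_snd.continuousAt.eventually (pr_sig_nhds q.2)

theorem mflow_fst {B : Type} [NormedAddCommGroup B] [NormedSpace ℝ B] {G : ℝ × E7 → B} {t : ℝ}
    {z : E7} (hG : DifferentiableAt ℝ G (t, z)) :
    HasFDerivAt (fun τ => G (τ, z)) ((fderiv ℝ G (t, z)).comp (ContinuousLinearMap.inl ℝ ℝ E7)) t :=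
  hG.hasFDerivAt.comp t (hasFDerivAt_prodMk_left t z)

theorem mflow_snd {B : Type} [NormedAddCommGroup B] [NormedSpace ℝ B] {G : ℝ × E7 → B} {t : ℝ}
    {z : E7} (hG : DifferentiableAt ℝ G (t, z)) :
    HasFDerivAt (fun y => G (t, y)) ((fderiv ℝ G (t, z)).comp (ContinuousLinearMap.inr ℝ ℝ E7)) z :=
  hG.hasFDerivAt.comp z (hasFDerivAt_prodMk_right t z)

theorem mflow_chain {B N : Type} [NormedAddCommGroup B] [NormedSpace ℝ B] [TopologicalSpace N]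
    [ChartedSpace B N] {F : Mf → N} {z : E7} (hz : z.2 ≠ 0)
    (hF : MDifferentiableAt 𝓘(ℝ, E6) 𝓘(ℝ, B) F (pr z)) {G : E7 → N}
    (e : ∀ y : E7, y.2 ≠ 0 → F (pr y) = G y) (a : E7) :
    (mfderiv 𝓘(ℝ, E6) 𝓘(ℝ, B) F (pr z) (dpr z a) : B) = mfderiv 𝓘(ℝ, E7) 𝓘(ℝ, B) G z a := by
  have h1 : (F ∘ pr) =ᶠ[𝓝 z] G := (Om_nhds hz).mono fun y hy => e y hy
  have h2 := mfderiv_comp z hF ((contMDiffAt_pr hz).mdifferentiableAt (by simp))
  have h3 : mfderiv 𝓘(ℝ, E7) 𝓘(ℝ, B) (F ∘ pr) z = mfderiv 𝓘(ℝ, E7) 𝓘(ℝ, B) G z :=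
    h1.mfderiv_eq
  exact (congrArg (fun L : E7 →L[ℝ] B => L a) (h2.symm.trans h3) :)

section

variable {c : ℝ} {H : ℝ × E7 → ℝ} {φ : ℝ × E7 → E7} (h : IsFlow7 c H φ)
include h

theorem mflow_H (t : ℝ) {z : E7} (hz : z.2 ≠ 0) : H (t, lf (pr z)) = H (t, z) :=
  h.invH t z _ hz (rel_lf hz)

theorem mflow_φ (t : ℝ) {z : E7} (hz : z.2 ≠ 0) : pr (φ (t, lf (pr z))) = pr (φ (t, z)) :=
  ((h.invφ t z _ hz (rel_lf hz)).pr_eq (h.ne t z hz)).symm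

theorem mflow_cH (t : ℝ) {z : E7} (hz : z.2 ≠ 0) : ContDiffAt ℝ ∞ H (t, z) :=
  h.smoothH.contDiffAt (mflow_nhds hz)

theorem mflow_cφ (t : ℝ) {z : E7} (hz : z.2 ≠ 0) : ContDiffAt ℝ ∞ φ (t, z) :=
  h.smoothφ.contDiffAt (mflow_nhds hz)

theorem mflow_smH :
    ContMDiff (𝓘(ℝ, ℝ).prod 𝓘(ℝ, E6)) 𝓘(ℝ, ℝ) ∞ fun q : ℝ × Mf => H (q.1, lf q.2) := by
  intro q
  refine ((mflow_cH h q.1 (sig_ne q.2 q.2)).contMDiffAt.comp q
    (mflow_lift q)).congr_of_eventuallyEq ?_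
  filter_upwards [mflow_near q] with p hp
  have k := mflow_H h p.1 (sig_ne q.2 p.2)
  rw [hp] at k
  exact k

theorem mflow_smφ :
    ContMDiff (𝓘(ℝ, ℝ).prod 𝓘(ℝ, E6)) 𝓘(ℝ, E6) ∞ fun q : ℝ × Mf => pr (φ (q.1, lf q.2)) := by
  intro q
  refine ((contMDiffAt_pr (h.ne q.1 _ (sig_ne q.2 q.2))).comp q
    ((mflow_cφ h q.1 (sig_ne q.2 q.2)).contMDiffAt.comp q
      (mflow_lift q))).congr_of_eventuallyEq ?_
  filter_upwards [mflow_near q] with p hp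
  have k := mflow_φ h p.1 (sig_ne q.2 p.2)
  rw [hp] at k
  exact k

theorem mflow_dH (t : ℝ) {z : E7} (hz : z.2 ≠ 0) (b : E7) :
    (mfderiv 𝓘(ℝ, E6) 𝓘(ℝ, ℝ) (fun m => H (t, lf m)) (pr z) (dpr z b) : ℝ) =
      fderiv ℝ H (t, z) (0, b) := by
  have h1 : ContMDiff 𝓘(ℝ, E6) 𝓘(ℝ, ℝ) ∞ fun m : Mf => H (t, lf m) :=
    (mflow_smH h).comp (contMDiff_const.prodMk contMDiff_id)
  refine (mflow_chain hz (h1.mdifferentiableAt (by simp)) (fun y hy => mflow_H h t hy) b).trans ?_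
  rw [mfderiv_eq_fderiv, (mflow_snd ((mflow_cH h t hz).differentiableAt (by simp))).fderiv]
  rfl

theorem mflow_dφ (t : ℝ) {z : E7} (hz : z.2 ≠ 0) (a : E7) :
    (mfderiv 𝓘(ℝ, E6) 𝓘(ℝ, E6) (fun m => pr (φ (t, lf m))) (pr z) (dpr z a) : E6) =
      dpr (φ (t, z)) (fderiv ℝ φ (t, z) (0, a)) := by
  have h1 : ContMDiff 𝓘(ℝ, E6) 𝓘(ℝ, E6) ∞ fun m : Mf => pr (φ (t, lf m)) :=
    (mflow_smφ h).comp (contMDiff_const.prodMk contMDiff_id)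
  have h2 := mflow_snd ((mflow_cφ h t hz).differentiableAt (by simp))
  refine (mflow_chain hz (h1.mdifferentiableAt (by simp)) (fun y hy => mflow_φ h t hy) a).trans ?_
  refine (mfderiv_pr_comp h2.differentiableAt (h.ne t z hz) a).trans ?_
  rw [h2.fderiv]
  rfl

theorem mflow_dt (t : ℝ) {z : E7} (hz : z.2 ≠ 0) :
    (mfderiv 𝓘(ℝ, ℝ) 𝓘(ℝ, E6) (fun τ => pr (φ (τ, z))) t (1 : ℝ) : E6) =
      dpr (φ (t, z)) (fderiv ℝ φ (t, z) (1, 0)) := by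
  have h2 := mflow_fst ((mflow_cφ h t hz).differentiableAt (by simp))
  refine (mfderiv_pr_comp h2.differentiableAt (h.ne t z hz) 1).trans ?_
  rw [h2.fderiv]
  rfl

end

theorem flow_desc {c : ℝ} {H : ℝ × E7 → ℝ} {φ : ℝ × E7 → E7} (h : IsFlow7 c H φ)
    {β : TwoForm E6 Mf} (hβ : ∀ (x : Mf) (v w : E6), β.toFun x v w = bet c x v w) :
    IsHamFlow β (fun t m => H (t, lf m)) (fun t m => pr (φ (t, lf m))) ∧
      NondegFix E6 (fun m => pr (φ (1, lf m))) ∧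
      (Fix0 fun t m => pr (φ (t, lf m))).encard ≤ 16 := by
  obtain ⟨S, hS, hfix⟩ := h.fix
  refine ⟨⟨mflow_smH h, fun t x => h.periodic t _ (lf_ne x), mflow_smφ h, fun x => ?_,
    fun t ht x w => ?_⟩, fun x hx v hv => ?_, ?_⟩
  · show pr (φ (0, lf x)) = x
    rw [h.zero _ (lf_ne x), pr_lf]
  · have hz := h.ne t _ (lf_ne x)
    obtain ⟨b, hb⟩ := dpr_surj hz w
    subst hb
    refine (hβ _ _ _).trans (Eq.trans ?_ (mflow_dH h t hz b).symm)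
    rw [← h.ode t ht (lf x) b (lf_ne x), ← bet_dpr c hz]
    exact congrArg (fun v => bet c (pr (φ (t, lf x))) v (dpr (φ (t, lf x)) b))
      (mflow_dt h t (lf_ne x))
  · obtain ⟨z, hz, rfl⟩ : ∃ z : E7, z.2 ≠ 0 ∧ pr z = x := ⟨lf x, lf_ne x, pr_lf x⟩
    have h1 : pr z = pr (φ (1, z)) := hx.symm.trans (mflow_φ h 1 hz)
    obtain ⟨-, h2, h3⟩ := hfix z hz ((pr_eq hz (h.ne 1 z hz)).1 h1)
    obtain ⟨a, rfl⟩ := dpr_surj hz v
    have h4 : dpr (φ (1, z)) (fderiv ℝ φ (1, z) (0, a)) = dpr z a :=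
      (mflow_dφ h 1 hz a).symm.trans hv
    rw [h2, ← sub_eq_zero, ← map_sub] at h4
    obtain ⟨r, hr⟩ := (dpr_ker hz).1 h4
    exact (dpr_ker hz).2 (h3 a r (by rw [← hr]; abel))
  · have h1 : (Fix0 fun t m => pr (φ (t, lf m))) ⊆ pr '' (S : Set E7) := by
      intro x hx
      have k1 : pr (lf x) = pr (φ (1, lf x)) := (pr_lf x).trans hx.1.symm
      obtain ⟨⟨z', k2, k3⟩, -⟩ := hfix _ (lf_ne x) ((pr_eq (lf_ne x) (h.ne 1 _ (lf_ne x))).1 k1)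
      exact ⟨z', k2, (k3.pr_eq (lf_ne x)).symm.trans (pr_lf x)⟩
    refine (encard_le_encard h1).trans ((encard_image_le _ _).trans ?_)
    rw [encard_coe_eq_coe_finsetCard]
    exact_mod_cast hS

end

end Vale.Agent.P265
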