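import Vale.Agent.P265.M.Smooth

/-!
P265 M/Form. The symplectic form.
-/

namespace Vale.Agent.P265

open scoped Manifold ContDiff Topology
open Set Filter

noncomputable section

theorem form_coef (c : ℝ) (m : Mf) (u v p : E6) :
    bet c ((chartAt E6 m).symm p) (coordVec E6 m u p) (coordVec E6 m v p) =
      om7 c (sec (Tm m) p) (secL (Tm m) u) (secL (Tm m) v) := by
  have e : ∀ u : E6, (coordVec E6 m u p : E6) = dpr (sec (Tm m) p) (secL (Tm m) u) := fun u => by
    rw [← (hasFDerivAt_sec (Tm m) p).fderiv]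
    exact mfderiv_pr_comp (hasFDerivAt_sec (Tm m) p).differentiableAt (sec_ne _ _) u
  rw [e, e, chart_symm]
  exact bet_dpr c (sec_ne _ _) _ _

/-- The form as a bilinear map. -/
def betL (c : ℝ) (m : Mf) : E6 →ₗ[ℝ] E6 →ₗ[ℝ] ℝ :=
  LinearMap.mk₂ ℝ (bet c m)
    (fun u v w => by
      simp only [bet, map_add, om7, om4, dot, cross, Prod.fst_add, Prod.snd_add]
      ring)
    (fun r v w => by
      simp only [bet, map_smul, om7, om4, dot, cross, Prod.smul_fst, Prod.smul_snd, smul_eq_mul]
      ring)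
    (fun u v w => by
      simp only [bet, map_add, om7, om4, dot, cross, Prod.fst_add, Prod.snd_add]
      ring)
    (fun r v w => by
      simp only [bet, map_smul, om7, om4, dot, cross, Prod.smul_fst, Prod.smul_snd, smul_eq_mul]
      ring)

theorem exists_form {c : ℝ} (hc : 0 < c) : ∃ β : TwoForm E6 Mf, β.IsSymplectic ∧
    ∀ (x : Mf) (v w : E6), β.toFun x v w = bet c x v w := by
  refine ⟨⟨betL c, fun x v => ?_, fun m u v => ?_⟩, ⟨fun m p _ u v w => ?_, fun x v h => ?_⟩,
    fun _ _ _ => rfl⟩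
  · change bet c x v v = 0
    simp only [bet, om7, om4, dot, cross]
    ring
  · exact ((contDiff_om7 c (Tm m) u v).contDiffOn).congr fun p _ => form_coef c m u v p
  · have e : ∀ u v : E6, (fun p => bet c ((chartAt E6 m).symm p) (coordVec E6 m u p)
        (coordVec E6 m v p)) = fun p => om7 c (sec (Tm m) p) (secL (Tm m) u) (secL (Tm m) v) :=
      fun u v => funext (form_coef c m u v)
    have := closed_om7 c (Tm m) p u v w
    rw [← e, ← e, ← e] at this
    exact this
  · have h' : ∀ w : E6, bet c x v w = 0 := h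
    clear h
    obtain ⟨z, hz, rfl⟩ : ∃ z : E7, z.2 ≠ 0 ∧ pr z = x := ⟨lf x, lf_ne x, pr_lf x⟩
    obtain ⟨a, rfl⟩ := dpr_surj hz v
    exact (dpr_ker hz).2 (om7_rad hc hz fun b => (bet_dpr c hz a b).symm.trans (h' _))

end

end Vale.Agent.P265
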