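import Vale.Agent.P265.M.Defs

/-!
P265 M/Alg. Algebra and calculus upstairs.
-/

namespace Vale.Agent.P265

open scoped Manifold ContDiff Topology
open Set Filter

noncomputable section

theorem om7_inv (c : ℝ) (z : E7) (m n i j : ℤ) {l : ℝ} (hl : 0 < l) (a b : E7) (r r' : ℝ) :
    om7 c (act m n i j z.1, l • z.2) (lin m n a.1, l • a.2 + r • z.2)
      (lin m n b.1, l • b.2 + r' • z.2) = om7 c z a b := by
  have e1 : dot (l • z.2) (l • z.2) = l ^ 2 * dot z.2 z.2 := by
    simp only [dot, Prod.smul_fst, Prod.smul_snd, smul_eq_mul]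
    ring
  have e2 : dot (l • z.2) (cross (l • a.2 + r • z.2) (l • b.2 + r' • z.2)) =
      l ^ 3 * dot z.2 (cross a.2 b.2) := by
    simp only [dot, cross, Prod.smul_fst, Prod.smul_snd, Prod.fst_add, Prod.snd_add, smul_eq_mul]
    ring
  simp only [om7, om4_lin, e1, e2]
  rw [Real.sqrt_mul (sq_nonneg l), Real.sqrt_sq hl.le, mul_pow,
    mul_div_mul_left _ _ (pow_pos hl 3).ne']

theorem dot_pos {y : R3} (hy : y ≠ 0) : 0 < dot y y := by
  refine lt_of_le_of_ne (add_nonneg (add_nonneg (mul_self_nonneg _) (mul_self_nonneg _))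
    (mul_self_nonneg _)) fun h => hy ?_
  unfold dot at h
  refine Prod.ext ?_ (Prod.ext ?_ ?_) <;> refine mul_self_eq_zero.1 ?_ <;>
    nlinarith [mul_self_nonneg y.1, mul_self_nonneg y.2.1, mul_self_nonneg y.2.2]

theorem om7_rad {c : ℝ} (hc : 0 < c) {z a : E7} (hz : z.2 ≠ 0) (h : ∀ b, om7 c z a b = 0) :
    ∃ r : ℝ, a = (0, r • z.2) := by
  have d0 := dot_pos hz
  have s0 : √(dot z.2 z.2) ^ 3 ≠ 0 := (pow_pos (Real.sqrt_pos.2 d0) 3).ne'
  have h1 : ∀ v, om4 a.1 v = 0 := fun v => by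
    simpa [om7, dot, cross, hc.ne'] using h (v, 0)
  have h2 : ∀ w, dot z.2 (cross a.2 w) = 0 := fun w => by
    have := h (0, w)
    rw [om7, h1, mul_zero, zero_add] at this
    exact (div_eq_zero_iff.1 this).resolve_right s0
  have a1 := h1 (1, 0, 0, 0)
  have a2 := h1 (0, 1, 0, 0)
  have a3 := h1 (0, 0, 1, 0)
  have a4 := h1 (0, 0, 0, 1)
  have b1 := h2 (1, 0, 0)
  have b2 := h2 (0, 1, 0)
  have b3 := h2 (0, 0, 1)
  simp only [om4, dot, cross] at a1 a2 a3 a4 b1 b2 b3
  refine ⟨dot z.2 a.2 / dot z.2 z.2, Prod.ext (Prod.ext ?_ (Prod.ext ?_ (Prod.ext ?_ ?_)))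
    (Prod.ext ?_ (Prod.ext ?_ ?_))⟩
  · simpa using a2
  · simpa using a1
  · simpa using a4
  · simpa using a3
  all_goals
    simp only [Prod.smul_fst, Prod.smul_snd, smul_eq_mul]
    rw [div_mul_eq_mul_div, eq_div_iff d0.ne']
    simp only [dot]
  · linear_combination z.2.2.2 * b2 - z.2.2.1 * b3
  · linear_combination z.2.1 * b3 - z.2.2.2 * b1
  · linear_combination z.2.2.1 * b1 - z.2.1 * b2

theorem alg_rho (T : T3) : ∃ ρ : ℝ × ℝ → ℝ, ContDiff ℝ ∞ ρ ∧ ∀ (c : ℝ) (u v : E6),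
    (fun p => om7 c (sec T p) (secL T u) (secL T v)) =
      fun p => c * om4 u.1 v.1 + (u.2.1 * v.2.2 - u.2.2 * v.2.1) * ρ p.2 := by
  have e : ∀ (s : ℝ) (w : ℝ × ℝ), T (s, w) =
      s • T (1, 0, 0) + w.1 • T (0, 1, 0) + w.2 • T (0, 0, 1) := by
    intro s w
    rw [← map_smul, ← map_smul, ← map_smul, ← map_add, ← map_add]
    congr 1
    simp
  have h1 : ContDiff ℝ ∞ fun w : ℝ × ℝ => T (1, w) :=
    T.contDiff.comp (contDiff_const.prodMk contDiff_id)
  have h2 : ContDiff ℝ ∞ fun w : ℝ × ℝ => dot (T (1, w)) (T (1, w)) := by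
    unfold dot
    fun_prop
  have h3 : ∀ w : ℝ × ℝ, 0 < dot (T (1, w)) (T (1, w)) := fun w => dot_pos (sec_ne T (0, w))
  refine ⟨fun w => dot (T (1, 0, 0)) (cross (T (0, 1, 0)) (T (0, 0, 1))) /
    √(dot (T (1, w)) (T (1, w))) ^ 3, contDiff_const.div ((h2.sqrt fun w => (h3 w).ne').pow 3)
      fun w => (pow_pos (Real.sqrt_pos.2 (h3 w)) 3).ne', fun c u v => funext fun p => ?_⟩
  have e2 : dot (T (1, p.2)) (cross (T (0, u.2)) (T (0, v.2))) = (u.2.1 * v.2.2 - u.2.2 * v.2.1) *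
      dot (T (1, 0, 0)) (cross (T (0, 1, 0)) (T (0, 0, 1))) := by
    rw [e 1 p.2, e 0 u.2, e 0 v.2]
    simp only [dot, cross, Prod.smul_fst, Prod.smul_snd, Prod.fst_add, Prod.snd_add, smul_eq_mul]
    ring
  simp only [om7, sec, secL_apply, e2, mul_div_assoc]

theorem contDiff_om7 (c : ℝ) (T : T3) (u v : E6) :
    ContDiff ℝ ∞ fun p => om7 c (sec T p) (secL T u) (secL T v) := by
  obtain ⟨ρ, h1, h2⟩ := alg_rho T
  rw [h2]
  exact contDiff_const.add (contDiff_const.mul (h1.comp contDiff_snd))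

theorem closed_om7 (c : ℝ) (T : T3) (p u v w : E6) :
    fderiv ℝ (fun p => om7 c (sec T p) (secL T v) (secL T w)) p u +
      fderiv ℝ (fun p => om7 c (sec T p) (secL T w) (secL T u)) p v +
      fderiv ℝ (fun p => om7 c (sec T p) (secL T u) (secL T v)) p w = 0 := by
  obtain ⟨ρ, h1, h2⟩ := alg_rho T
  have h3 := (h1.differentiable (by simp) p.2).hasFDerivAt
  have e : ∀ (k l : ℝ) (x : E6), fderiv ℝ (fun q : E6 => k + l * ρ q.2) p x =
      l * (x.2.1 * fderiv ℝ ρ p.2 (1, 0) + x.2.2 * fderiv ℝ ρ p.2 (0, 1)) := by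
    intro k l x
    have h4 : HasFDerivAt (fun q : E6 => ρ q.2) _ p := h3.comp p hasFDerivAt_snd
    rw [((h4.const_mul l).const_add k).fderiv, ← smul_eq_mul x.2.1, ← smul_eq_mul x.2.2,
      ← map_smul, ← map_smul, ← map_add]
    simp
  simp only [h2, e]
  ring

theorem lin_bij (m n : ℤ) : Function.Bijective (lin m n) := by
  have e : ∀ (m : ℤ) u, lin (-m) n (lin m n u) = u := by
    intro m u
    refine Prod.ext rfl (Prod.ext rfl (Prod.ext ?_ ?_))
    · simp only [lin]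
      push_cast
      linear_combination u.2.2.1 * sg_sq n
    · simp only [lin]
      linear_combination u.2.2.2 * sg_sq n
  refine Function.bijective_iff_has_inverse.2 ⟨lin (-m) n, e m, fun u => ?_⟩
  simpa using e (-m) u

/-- The linear part as a continuous linear map. -/
def linL (m n : ℤ) : R4 →L[ℝ] R4 := LinearMap.toContinuousLinearMap
  { toFun := lin m n
    map_add' := fun u v => by
      simp only [lin, Prod.fst_add, Prod.snd_add, Prod.mk_add_mk, Prod.mk.injEq]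
      refine ⟨trivial, trivial, by ring, by ring⟩
    map_smul' := fun c u => by
      simp only [lin, Prod.smul_fst, Prod.smul_snd, smul_eq_mul, RingHom.id_apply, Prod.smul_mk,
        Prod.mk.injEq]
      refine ⟨trivial, trivial, by ring, by ring⟩ }

theorem linL_apply (m n : ℤ) (u : R4) : linL m n u = lin m n u := rfl

theorem hasFDerivAt_act (m n i j : ℤ) (u : R4) : HasFDerivAt (act m n i j) (linL m n) u := by
  have e : act m n i j = fun u => act m n i j 0 + linL m n u := by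
    funext u
    rw [linL_apply, ← act_add_lin, zero_add]
  rw [e]
  exact (linL m n).hasFDerivAt.const_add _

theorem secL_inj (T : T3) : Function.Injective (secL T) := by
  intro v w h
  have h2 : T (0, v.2) = T (0, w.2) := congrArg Prod.snd h
  have h1 : (secL T v).1 = (secL T w).1 := congrArg Prod.fst h
  have h3 := congrArg Prod.snd (T.injective h2)
  exact Prod.ext h1 h3

theorem fderiv_kap (T : T3) (m n i j : ℤ) {z : E7} (h : 0 < (T.symm z.2).1) (a : E7) :
    ∃ r : ℝ, secL T (fderiv ℝ (kap T m n i j) z a) =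
      (lin m n a.1, (T.symm z.2).1⁻¹ • a.2 + r • z.2) := by
  have h1 := ((contDiffAt_kap T m n i j h).differentiableAt (by simp)).hasFDerivAt
  have h2 := (hasFDerivAt_sec T _).comp z h1
  have h3 : DifferentiableAt ℝ (fun z : E7 => (T.symm z.2).1⁻¹) z :=
    DifferentiableAt.inv (by fun_prop) h.ne'
  have h4 := ((hasFDerivAt_act m n i j z.1).comp z hasFDerivAt_fst).prodMk
    (h3.hasFDerivAt.smul (hasFDerivAt_snd (p := z)))
  have h5 := (h4.congr_of_eventuallyEq
    ((pos_nhds h).mono fun z' h' => sec_kap T m n i j h')).unique h2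
  exact ⟨_, (DFunLike.congr_fun h5 a).symm⟩

theorem secL_rad {T : T3} {y : R3} (h : 0 < (T.symm y).1) {v : E6} {r : ℝ}
    (e : secL T v = (0, r • y)) : v = 0 := by
  have h2 : T (0, v.2) = r • y := congrArg Prod.snd e
  have h3 : ((0, v.2) : R3) = r • T.symm y := by rw [← map_smul, ← h2, T.symm_apply_apply]
  have h4 : r = 0 := by
    have := congrArg Prod.fst h3
    simpa [h.ne'] using this
  refine secL_inj T ?_
  rw [e, h4, zero_smul, map_zero]
  rfl

theorem kap_surj (T : T3) (m n i j : ℤ) {z : E7} (h : 0 < (T.symm z.2).1) :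
    Function.Surjective (fderiv ℝ (kap T m n i j) z) := by
  intro v
  obtain ⟨u, hu⟩ := (lin_bij m n).2 v.1
  obtain ⟨r, hr⟩ := fderiv_kap T m n i j h (u, (T.symm z.2).1 • T (0, v.2))
  refine ⟨(u, (T.symm z.2).1 • T (0, v.2)), sub_eq_zero.1 (secL_rad h (r := r) ?_)⟩
  rw [map_sub, hr, secL_apply, hu, inv_smul_smul₀ h.ne']
  simp

theorem kap_ker (T : T3) (m n i j : ℤ) {z : E7} (h : 0 < (T.symm z.2).1) {a : E7} :
    fderiv ℝ (kap T m n i j) z a = 0 ↔ ∃ r : ℝ, a = (0, r • z.2) := by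
  obtain ⟨r, hr⟩ := fderiv_kap T m n i j h a
  have l0 : lin m n 0 = 0 := (linL m n).map_zero
  constructor
  · intro h0
    rw [h0, map_zero] at hr
    have h1 : lin m n a.1 = 0 := (congrArg Prod.fst hr).symm
    have h2 : (T.symm z.2).1⁻¹ • a.2 + r • z.2 = 0 := (congrArg Prod.snd hr).symm
    refine ⟨-((T.symm z.2).1 * r), Prod.ext ((lin_bij m n).1 (h1.trans l0.symm)) ?_⟩
    have h3 := eq_neg_of_add_eq_zero_left h2
    rw [inv_smul_eq_iff₀ h.ne'] at h3
    rw [h3, smul_neg, smul_smul, neg_smul]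
  · rintro ⟨s, rfl⟩
    refine secL_rad h (r := (T.symm z.2).1⁻¹ * s + r) ?_
    rw [hr, l0, add_smul, smul_smul]

end

end Vale.Agent.P265
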