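import Vale.Agent.P265.Base

/-!
P265 block M (helper43): the quotient `Mf`, the projection `pr`, the affine sections `sec T` and the charts.
`(chartAt E6 m).symm = pr ∘ sec (Tm m)` everywhere, and near a point `z` with `pr z` in the source, `chartAt E6 m ∘ pr = kap (Tm m) g` (`chart_local`).
-/

namespace Vale.Agent.P265

open scoped Manifold ContDiff Topology
open Set Filter

noncomputable section

/-- The relation as a setoid. -/
def rel7 : Setoid {z : E7 // z.2 ≠ 0} :=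
  ⟨fun a b => Rel7 a.1 b.1, ⟨fun _ => Rel7.refl _, Rel7.symm, Rel7.trans⟩⟩

/-- The manifold. -/
def Mf : Type := Quotient rel7

instance : TopologicalSpace Mf := inferInstanceAs (TopologicalSpace (Quotient rel7))

open Classical in
/-- The projection. -/
def pr (z : E7) : Mf :=
  if h : z.2 ≠ 0 then Quotient.mk rel7 ⟨z, h⟩ else Quotient.mk rel7 ⟨(0, (1, 0, 0)), by simp⟩

/-- A chosen lift. -/
def lf (m : Mf) : E7 := (Quotient.out m).1

theorem pr_mk (z : {z : E7 // z.2 ≠ 0}) : pr z.1 = Quotient.mk rel7 z := dif_pos z.2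

theorem lf_ne (m : Mf) : (lf m).2 ≠ 0 := (Quotient.out m).2

theorem pr_lf (m : Mf) : pr (lf m) = m := (pr_mk _).trans (Quotient.out_eq m)

theorem pr_eq {z z' : E7} (h : z.2 ≠ 0) (h' : z'.2 ≠ 0) : pr z = pr z' ↔ Rel7 z z' := by
  rw [pr_mk ⟨z, h⟩, pr_mk ⟨z', h'⟩]
  exact Quotient.eq

theorem Rel7.ne {z z' : E7} (h : Rel7 z z') (hz : z.2 ≠ 0) : z'.2 ≠ 0 := by
  obtain ⟨-, c, hc, e⟩ := h
  rw [e]
  exact smul_ne_zero hc.ne' hz

theorem Rel7.pr_eq {z z' : E7} (h : Rel7 z z') (hz : z.2 ≠ 0) : pr z = pr z' :=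
  (P265.pr_eq hz (h.ne hz)).2 h

theorem rel_lf {z : E7} (hz : z.2 ≠ 0) : Rel7 z (lf (pr z)) :=
  (pr_eq hz (lf_ne _)).1 (pr_lf _).symm

theorem isOpen_Om : IsOpen {z : E7 | z.2 ≠ 0} := isOpen_ne.preimage continuous_snd

theorem Om_nhds {z : E7} (hz : z.2 ≠ 0) : ∀ᶠ z' in 𝓝 z, z'.2 ≠ 0 := isOpen_Om.mem_nhds hz

theorem continuousOn_pr : ContinuousOn pr {z : E7 | z.2 ≠ 0} := by
  rw [continuousOn_iff_continuous_domRestrict]
  exact (continuous_quotient_mk' (s := rel7)).congr fun z => (pr_mk z).symm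

theorem continuousAt_pr {z : E7} (hz : z.2 ≠ 0) : ContinuousAt pr z :=
  continuousOn_pr.continuousAt (Om_nhds hz)

theorem isOpen_Mf {U : Set Mf} (h : IsOpen {z : E7 | z.2 ≠ 0 ∧ pr z ∈ U}) : IsOpen U := by
  refine isOpen_coinduced.2 ?_
  convert h.preimage (continuous_subtype_val (p := fun z : E7 => z.2 ≠ 0)) using 1
  ext z
  simp only [mem_preimage, mem_ofPred_eq, pr_mk]
  exact ⟨fun h => ⟨z.2, h⟩, fun h => h.2⟩

/-- Frames of `R3`. -/
abbrev T3 : Type := R3 ≃L[ℝ] R3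

/-- The affine section. -/
def sec (T : T3) (v : E6) : E7 := (v.1, T (1, v.2))

/-- Its linear part. -/
def secL (T : T3) : E6 →L[ℝ] E7 :=
  (ContinuousLinearMap.fst ℝ R4 (ℝ × ℝ)).prod ((T : R3 →L[ℝ] R3).comp
    ((ContinuousLinearMap.inr ℝ ℝ (ℝ × ℝ)).comp (ContinuousLinearMap.snd ℝ R4 (ℝ × ℝ))))

/-- The local form of the projection. -/
def kap (T : T3) (m n a b : ℤ) (z : E7) : E6 :=
  (act m n a b z.1, (T.symm z.2).1⁻¹ • (T.symm z.2).2)

theorem secL_apply (T : T3) (v : E6) : secL T v = (v.1, T (0, v.2)) := rfl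

theorem sec_eq (T : T3) (v : E6) : sec T v = (0, T (1, 0)) + secL T v := by
  rw [secL_apply, Prod.mk_add_mk, zero_add, ← map_add, Prod.mk_add_mk, add_zero, zero_add, sec]

theorem hasFDerivAt_sec (T : T3) (v : E6) : HasFDerivAt (sec T) (secL T) v := by
  rw [funext (sec_eq T)]
  exact (secL T).hasFDerivAt.const_add _

theorem contDiff_sec (T : T3) : ContDiff ℝ ∞ (sec T) := by
  rw [funext (sec_eq T)]
  exact contDiff_const.add (secL T).contDiff

theorem sec_ne (T : T3) (v : E6) : (sec T v).2 ≠ 0 := fun h => by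
  have := congrArg Prod.fst (T.map_eq_zero_iff.1 h)
  simp at this

theorem ne_of_pos {T : T3} {y : R3} (h : 0 < (T.symm y).1) : y ≠ 0 := by
  rintro rfl
  simp at h

theorem contDiff_act (m n a b : ℤ) : ContDiff ℝ ∞ (act m n a b) := by
  unfold act
  fun_prop

theorem contDiffAt_kap (T : T3) (m n a b : ℤ) {z : E7} (h : 0 < (T.symm z.2).1) :
    ContDiffAt ℝ ∞ (kap T m n a b) z := by
  have h1 : ContDiff ℝ ∞ fun z : E7 => T.symm z.2 := T.symm.contDiff.comp contDiff_snd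
  exact ((contDiff_act m n a b).comp contDiff_fst).contDiffAt.prodMk
    ((h1.fst.contDiffAt.inv h.ne').smul h1.snd.contDiffAt)

theorem pos_nhds {T : T3} {z : E7} (h : 0 < (T.symm z.2).1) :
    ∀ᶠ z' : E7 in 𝓝 z, 0 < (T.symm z'.2).1 :=
  (isOpen_lt continuous_const (by fun_prop)).mem_nhds h

theorem sec_kap (T : T3) (m n a b : ℤ) {z : E7} (h : 0 < (T.symm z.2).1) :
    sec T (kap T m n a b z) = (act m n a b z.1, (T.symm z.2).1⁻¹ • z.2) := by
  refine Prod.ext rfl ?_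
  change T (1, (T.symm z.2).1⁻¹ • (T.symm z.2).2) = (T.symm z.2).1⁻¹ • z.2
  conv_rhs => rw [← T.apply_symm_apply z.2, ← map_smul]
  rw [T.symm_apply_apply]
  congr 1
  exact Prod.ext (by simp [h.ne']) rfl

theorem rel_sec_iff (T : T3) {z : E7} {v : E6} : Rel7 z (sec T v) ↔
    ∃ m n a b : ℤ, 0 < (T.symm z.2).1 ∧ kap T m n a b z = v := by
  constructor
  · rintro ⟨⟨m, n, a, b, h1⟩, c, hc, h2⟩
    have e : T.symm z.2 = c⁻¹ • (1, v.2) := by
      have : T.symm (c • z.2) = (1, v.2) := by rw [← h2, sec, T.symm_apply_apply]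
      rw [← this, map_smul, inv_smul_smul₀ hc.ne']
    refine ⟨m, n, a, b, by simpa [e] using hc, Prod.ext h1.symm ?_⟩
    simp [kap, e, smul_smul, hc.ne']
  · rintro ⟨m, n, a, b, h, rfl⟩
    rw [sec_kap T m n a b h]
    exact ⟨⟨m, n, a, b, rfl⟩, _, inv_pos.2 h, rfl⟩

theorem pr_sec_kap (T : T3) (m n a b : ℤ) {z : E7} (h : 0 < (T.symm z.2).1) :
    pr (sec T (kap T m n a b z)) = pr z :=
  (((rel_sec_iff T).2 ⟨m, n, a, b, h, rfl⟩).pr_eq (ne_of_pos h)).symm

theorem continuous_pr_sec (T : T3) : Continuous fun v => pr (sec T v) :=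
  continuousOn_pr.comp_continuous (contDiff_sec T).continuous (sec_ne T)

theorem isOpenMap_pr_sec (T : T3) : IsOpenMap fun v => pr (sec T v) := by
  intro U hU
  refine isOpen_Mf (isOpen_iff_mem_nhds.2 ?_)
  rintro z ⟨hz, v, hv, e⟩
  obtain ⟨m, n, a, b, h, rfl⟩ := (rel_sec_iff T).1 ((pr_eq hz (sec_ne T v)).1 e.symm)
  filter_upwards [pos_nhds h, (contDiffAt_kap T m n a b h).continuousAt (hU.mem_nhds hv)]
    with z' h1 h2
  exact ⟨ne_of_pos h1, _, h2, pr_sec_kap T m n a b h1⟩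

theorem int_small {m : ℤ} {x y c : ℝ} (h1 : dist x c < 1 / 2) (h2 : dist y c < 1 / 2)
    (e : x + m = y) : m = 0 := by
  rw [Real.dist_eq, abs_lt] at h1 h2
  have a1 : (m : ℝ) < 1 := by linarith
  have a2 : (-1 : ℝ) < m := by linarith
  have a3 : m < 1 := by exact_mod_cast a1
  have a4 : -1 < m := by exact_mod_cast a2
  omega

theorem act_small {m n a b : ℤ} {u u' c : R4} (h1 : dist u c < 1 / 2) (h2 : dist u' c < 1 / 2)
    (e : act m n a b u = u') : u = u' := by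
  simp only [Prod.dist_eq, max_lt_iff] at h1 h2
  obtain rfl : m = 0 := int_small h1.1 h2.1 (congrArg Prod.fst e)
  obtain rfl : n = 0 := int_small h1.2.1 h2.2.1 (congrArg (fun w : R4 => w.2.1) e)
  rw [act_trans] at e
  obtain rfl : a = 0 := int_small h1.2.2.1 h2.2.2.1 (congrArg (fun w : R4 => w.2.2.1) e)
  obtain rfl : b = 0 := int_small h1.2.2.2 h2.2.2.2 (congrArg (fun w : R4 => w.2.2.2) e)
  simpa using e

theorem injOn_pr_sec (T : T3) (c : R4) :
    InjOn (fun v => pr (sec T v)) (Metric.ball c (1 / 2) ×ˢ univ) := by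
  intro v hv v' hv' e
  obtain ⟨m, n, a, b, -, h⟩ := (rel_sec_iff T).1 ((pr_eq (sec_ne T v) (sec_ne T v')).1 e)
  refine Prod.ext (act_small hv.1 hv'.1 (congrArg Prod.fst h)) ?_
  simpa [kap, sec] using congrArg Prod.snd h

/-- The inverse of a chart. -/
def par (T : T3) (c : R4) : OpenPartialHomeomorph E6 Mf :=
  OpenPartialHomeomorph.ofContinuousOpen ((injOn_pr_sec T c).toPartialEquiv _ _)
    (continuous_pr_sec T).continuousOn (isOpenMap_pr_sec T) (Metric.isOpen_ball.prod isOpen_univ)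

theorem exists_T {y : R3} (hy : y ≠ 0) : ∃ T : T3, 0 < (T.symm y).1 := by
  let C : T3 := (ContinuousLinearEquiv.prodComm ℝ ℝ (ℝ × ℝ)).trans
    (ContinuousLinearEquiv.prodAssoc ℝ ℝ ℝ ℝ)
  have key : ∀ S : T3, (S y).1 ≠ 0 → ∃ T : T3, 0 < (T.symm y).1 := by
    intro S h
    rcases lt_or_gt_of_ne h with h | h
    · exact ⟨(S.trans (ContinuousLinearEquiv.neg ℝ)).symm, by simpa using h⟩
    · exact ⟨S.symm, h⟩
  by_contra hc
  have h1 : y.1 = 0 := by_contra fun h => hc (key (ContinuousLinearEquiv.refl ℝ R3) h)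
  have h2 : y.2.1 = 0 := by_contra fun h => hc (key C h)
  have h3 : y.2.2 = 0 := by_contra fun h => hc (key (C.trans C) h)
  exact hy (Prod.ext h1 (Prod.ext h2 h3))

/-- The frame used at `m`. -/
def Tm (m : Mf) : T3 := (exists_T (lf_ne m)).choose

theorem Tm_pos (m : Mf) : 0 < ((Tm m).symm (lf m).2).1 := (exists_T (lf_ne m)).choose_spec

instance : ChartedSpace E6 Mf where
  atlas := range fun m => (par (Tm m) (lf m).1).symm
  chartAt m := (par (Tm m) (lf m).1).symm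
  mem_chart_source m := ⟨kap (Tm m) 0 0 0 0 (lf m),
    ⟨by simp [kap, act_zero], mem_univ _⟩, (pr_sec_kap _ 0 0 0 0 (Tm_pos m)).trans (pr_lf m)⟩
  chart_mem_atlas m := ⟨m, rfl⟩

theorem chart_symm (m : Mf) (v : E6) : (chartAt E6 m).symm v = pr (sec (Tm m) v) := rfl

theorem atlas_eq {e : OpenPartialHomeomorph Mf E6} (h : e ∈ atlas E6 Mf) :
    ∃ m, chartAt E6 m = e := h

theorem chart_local {m : Mf} {z : E7} (hz : z.2 ≠ 0) (h : pr z ∈ (chartAt E6 m).source) :
    ∃ i n a b : ℤ, 0 < ((Tm m).symm z.2).1 ∧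
      ∀ᶠ z' in 𝓝 z, chartAt E6 m (pr z') = kap (Tm m) i n a b z' := by
  have e := (chartAt E6 m).left_inv h
  rw [chart_symm] at e
  obtain ⟨i, n, a, b, h1, h2⟩ := (rel_sec_iff (Tm m)).1 ((pr_eq hz (sec_ne _ _)).1 e.symm)
  refine ⟨i, n, a, b, h1, ?_⟩
  have h3 := (chartAt E6 m).open_target.mem_nhds ((chartAt E6 m).map_source h)
  rw [← h2] at h3
  filter_upwards [pos_nhds h1, (contDiffAt_kap _ i n a b h1).continuousAt h3] with z' h4 h5
  rw [← pr_sec_kap (Tm m) i n a b h4, ← chart_symm]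
  exact (chartAt E6 m).right_inv h5

/-- The local section through the chart at `m`. -/
def sig (m x : Mf) : E7 := sec (Tm m) (chartAt E6 m x)

theorem sig_ne (m x : Mf) : (sig m x).2 ≠ 0 := sec_ne _ _

theorem pr_sig {m x : Mf} (h : x ∈ (chartAt E6 m).source) : pr (sig m x) = x :=
  (chartAt E6 m).left_inv h

/-- The differential of the projection, with plain types. -/
def dpr (z : E7) : E7 →L[ℝ] E6 := mfderiv 𝓘(ℝ, E7) 𝓘(ℝ, E6) pr z

/-- The symplectic form, with plain types. -/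
def bet (c : ℝ) (m : Mf) (v w : E6) : ℝ := om7 c (sig m m) (secL (Tm m) v) (secL (Tm m) w)

end

end Vale.Agent.P265
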