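import Vale.Agent.P265.M.Smooth

/-!
P265 M/Morse (TASK). Helper names start with mmor_.
`hess_comp`: near `w`, `fderiv (l ∘ K) w' = (fderiv l (K w')).comp (fderiv K w')`; `HasFDerivAt.clm_comp`; the term with `fderiv l (K w) = 0` drops.
`pen`: `P w = (dot y y - 1)²` has `fderiv P w a = 4 (dot y y - 1) dot y a.1.2` and, when `dot y y = 1`, `fderiv (fderiv P) w a b = 8 (dot y a.1.2) (dot y b.1.2)`.
`lift_crit`: with `m = pr w.1`, near `w` we have `F (pr w'.1, w'.2) = loc E6 F m (K w')`, `K w' = (kap (Tm m) i n a b w'.1, w'.2)` (`chart_local`, `left_inv`), `loc E6 F m = F ∘ (pr ∘ sec, id)` is smooth (`chart_symm`, `contMDiffAt_pr`);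
`fderiv K w (a, ζ) = (fderiv kap w.1 a, ζ)` is onto (`kap_surj`) with kernel the radial line (`kap_ker`). Test the critical point equation with the radial vector `((0, y), 0)`: `dot y y = 1` (`dot_pos`), so `fderiv (loc ..) (K w) = 0`.
Injectivity: if the Hessian kills `a`, test with the radial vector: `dot y a.1.2 = 0`; then `fderiv K w a = 0`, `a` is radial, `a = 0`.
`morse_desc`: `le_iInf`; if `Crit` is infinite the cardinality is `⊤`; otherwise apply `hL` to `f w = F (pr w.1, w.2)` and `S` = image of `Crit` under `a ↦ (lf a.1, a.2)` (`rel_lf`, `Finset.card_image_le`).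
-/

namespace Vale.Agent.P265

open scoped Manifold ContDiff Topology
open Set Filter

noncomputable section

theorem hess_comp {A B : Type} [NormedAddCommGroup A] [NormedSpace ℝ A] [NormedAddCommGroup B]
    [NormedSpace ℝ B] {l : B → ℝ} {K : A → B} {w : A} (hl : ContDiffAt ℝ 2 l (K w))
    (hK : ContDiffAt ℝ 2 K w) (h0 : fderiv ℝ l (K w) = 0) (a b : A) :
    fderiv ℝ (fderiv ℝ fun x => l (K x)) w a b =
      fderiv ℝ (fderiv ℝ l) (K w) (fderiv ℝ K w a) (fderiv ℝ K w b) := by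
  have e : (fderiv ℝ fun x => l (K x)) =ᶠ[𝓝 w] fun x => (fderiv ℝ l (K x)).comp (fderiv ℝ K x) := by
    filter_upwards [hK.eventually (by simp), hK.continuousAt (hl.eventually (by simp))]
      with x h1 h2
    have h3 : ContDiffAt ℝ 2 l (K x) := h2
    exact fderiv_comp x (h3.differentiableAt (by simp)) (h1.differentiableAt (by simp))
  have d1 : DifferentiableAt ℝ (fderiv ℝ l) (K w) :=
    (hl.fderiv_right (m := 1) (by norm_num)).differentiableAt (by simp)
  have d2 : DifferentiableAt ℝ (fderiv ℝ K) w :=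
    (hK.fderiv_right (m := 1) (by norm_num)).differentiableAt (by simp)
  have d3 := d1.hasFDerivAt.comp w (hK.differentiableAt (by simp)).hasFDerivAt
  have d4 := (HasFDerivAt.clm_comp d3 d2.hasFDerivAt).fderiv
  rw [e.fderiv_eq]
  have d5 : (fun x => (fderiv ℝ l (K x)).comp (fderiv ℝ K x)) =
      fun x => ((fderiv ℝ l ∘ K) x).comp (fderiv ℝ K x) := rfl
  rw [d5, d4]
  simp [h0]

theorem mmor_add {A : Type} [NormedAddCommGroup A] [NormedSpace ℝ A] {f g : A → ℝ} {w : A}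
    (hf : ContDiffAt ℝ 2 f w) (hg : ContDiffAt ℝ 2 g w) (a b : A) :
    fderiv ℝ (fderiv ℝ fun x => f x + g x) w a b =
      fderiv ℝ (fderiv ℝ f) w a b + fderiv ℝ (fderiv ℝ g) w a b := by
  have e : (fderiv ℝ fun x => f x + g x) =ᶠ[𝓝 w] fun x => fderiv ℝ f x + fderiv ℝ g x := by
    filter_upwards [hf.eventually (by simp), hg.eventually (by simp)] with x h1 h2
    exact fderiv_fun_add (h1.differentiableAt (by simp)) (h2.differentiableAt (by simp))
  have d1 : DifferentiableAt ℝ (fderiv ℝ f) w :=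
    (hf.fderiv_right (m := 1) (by norm_num)).differentiableAt (by simp)
  have d2 : DifferentiableAt ℝ (fderiv ℝ g) w :=
    (hg.fderiv_right (m := 1) (by norm_num)).differentiableAt (by simp)
  rw [e.fderiv_eq, fderiv_fun_add d1 d2]
  rfl

theorem mmor_sq1 (s a : ℝ) : fderiv ℝ (fun x : ℝ => x ^ 2) s a = 2 * s * a := by
  rw [(hasDerivAt_pow 2 s).hasFDerivAt.fderiv]
  simp
  ring

theorem mmor_sq2 (s a b : ℝ) : fderiv ℝ (fderiv ℝ fun x : ℝ => x ^ 2) s a b = 2 * a * b := by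
  have e : (fderiv ℝ fun x : ℝ => x ^ 2) =
      fun s => (2 * s) • ContinuousLinearMap.id ℝ ℝ := by
    funext x
    refine ContinuousLinearMap.ext fun c => ?_
    rw [mmor_sq1]
    simp
  have h := (((hasDerivAt_id s).const_mul 2).smul_const
    (ContinuousLinearMap.id ℝ ℝ)).hasFDerivAt.fderiv
  rw [e]
  simp only [id] at h
  rw [h]
  simp
  ring

theorem mmor_abs {A B : Type} [NormedAddCommGroup A] [NormedSpace ℝ A] [NormedAddCommGroup B]
    [NormedSpace ℝ B] {l : B → ℝ} {K : A → B} {q : A → ℝ} {w ρ : A} (hl : ContDiffAt ℝ 2 l (K w))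
    (hK : ContDiffAt ℝ 2 K w) (hq : ContDiffAt ℝ 2 q w) (hρ : fderiv ℝ q w ρ ≠ 0)
    (hs : Function.Surjective (fderiv ℝ K w))
    (hk : ∀ a, fderiv ℝ K w a = 0 ↔ ∃ r : ℝ, a = r • ρ)
    (h0 : fderiv ℝ (fun x => l (K x) + q x ^ 2) w = 0) :
    fderiv ℝ l (K w) = 0 ∧ (Function.Injective (fderiv ℝ (fderiv ℝ l) (K w)) →
      Function.Injective (fderiv ℝ (fderiv ℝ fun x => l (K x) + q x ^ 2) w)) := by
  have hlK : ContDiffAt ℝ 2 (fun x => l (K x)) w := hl.comp w hK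
  have hqq : ContDiffAt ℝ 2 (fun x => q x ^ 2) w := hq.pow 2
  have hρ0 : fderiv ℝ K w ρ = 0 := (hk ρ).2 ⟨1, (one_smul _ _).symm⟩
  have e1 : ∀ a, fderiv ℝ l (K w) (fderiv ℝ K w a) + 2 * q w * fderiv ℝ q w a = 0 := by
    intro a
    have d1 := (hl.differentiableAt (by simp)).hasFDerivAt.comp w
      (hK.differentiableAt (by simp)).hasFDerivAt
    have d2 := (hq.differentiableAt (by simp)).hasFDerivAt.pow 2
    have d3 : fderiv ℝ (fun x => l (K x) + q x ^ 2) w = _ := (d1.add d2).fderiv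
    rw [h0] at d3
    have d4 := congrArg (fun L : A →L[ℝ] ℝ => L a) d3
    simpa using d4.symm
  have e2 : q w = 0 := by
    have := e1 ρ
    rw [hρ0, map_zero, zero_add] at this
    simpa [hρ] using this
  have e3 : fderiv ℝ l (K w) = 0 := by
    refine ContinuousLinearMap.ext fun c => ?_
    obtain ⟨a, rfl⟩ := hs c
    simpa [e2] using e1 a
  refine ⟨e3, fun hi => ?_⟩
  have e4 : ∀ a b, fderiv ℝ (fderiv ℝ fun x => l (K x) + q x ^ 2) w a b =
      fderiv ℝ (fderiv ℝ l) (K w) (fderiv ℝ K w a) (fderiv ℝ K w b) +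
        2 * fderiv ℝ q w a * fderiv ℝ q w b := by
    intro a b
    rw [mmor_add hlK hqq, hess_comp hl hK e3,
      hess_comp (l := fun x : ℝ => x ^ 2) (K := q) (contDiffAt_id.pow 2) hq
        (ContinuousLinearMap.ext fun c => by rw [mmor_sq1, e2]; simp), mmor_sq2]
  rw [injective_iff_map_eq_zero] at hi ⊢
  intro a ha
  have e5 : fderiv ℝ q w a = 0 := by
    have := e4 a ρ
    rw [ha, hρ0, map_zero, zero_add] at this
    simpa [hρ] using this
  have e6 : fderiv ℝ K w a = 0 := by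
    refine hi _ (ContinuousLinearMap.ext fun c => ?_)
    obtain ⟨b, rfl⟩ := hs c
    have := e4 a b
    rw [ha, e5] at this
    simpa using this.symm
  obtain ⟨r, rfl⟩ := (hk a).1 e6
  have e7 : r = 0 := by simpa [hρ] using e5
  rw [e7, zero_smul]

theorem mmor_smooth {k : ℕ} {F : Mf × Rk k → ℝ}
    (hF : ContMDiff (𝓘(ℝ, E6).prod 𝓘(ℝ, Rk k)) 𝓘(ℝ, ℝ) ∞ F) {A : Type} [NormedAddCommGroup A]
    [NormedSpace ℝ A] {u : A → E7} {v : A → Rk k} {x : A} (hu : ContDiffAt ℝ ∞ u x)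
    (hv : ContDiffAt ℝ ∞ v x) (h : (u x).2 ≠ 0) :
    ContDiffAt ℝ ∞ (fun y => F (pr (u y), v y)) x := by
  have h1 : ContMDiffAt 𝓘(ℝ, A) 𝓘(ℝ, E6) ∞ (fun y => pr (u y)) x :=
    (contMDiffAt_pr h).comp x hu.contMDiffAt
  have h2 := (hF (pr (u x), v x)).comp x (f := fun y => (pr (u y), v y))
    (h1.prodMk hv.contMDiffAt)
  exact contMDiffAt_iff_contDiffAt.1 h2

theorem mmor_q {k : ℕ} : ContDiff ℝ ∞ fun w : E7 × Rk k => dot w.1.2 w.1.2 - 1 := by
  unfold dot
  fun_prop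

theorem mmor_rad {k : ℕ} (w : E7 × Rk k) :
    fderiv ℝ (fun w : E7 × Rk k => dot w.1.2 w.1.2 - 1) w ((0, w.1.2), 0) =
      2 * dot w.1.2 w.1.2 := by
  have h1 := ((mmor_q (k := k)).differentiable (by simp) w).hasFDerivAt.comp_hasDerivAt_of_eq
    (0 : ℝ) (((hasDerivAt_id (0 : ℝ)).smul_const ((((0, w.1.2), 0)) : E7 × Rk k)).const_add w)
    (by simp)
  have h2 : HasDerivAt (fun t : ℝ => (1 + t) ^ 2 * dot w.1.2 w.1.2 - 1) (2 * dot w.1.2 w.1.2) 0 := by
    have := (((((hasDerivAt_id (0 : ℝ)).const_add 1).pow 2)).mul_const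
      (dot w.1.2 w.1.2)).sub_const 1
    refine this.congr_deriv ?_
    simp
  rw [one_smul] at h1
  refine h1.unique (h2.congr_of_eventuallyEq (Eventually.of_forall fun t => ?_))
  simp only [Function.comp, dot, id, Prod.fst_add, Prod.snd_add, Prod.smul_fst, Prod.smul_snd,
    smul_eq_mul]
  ring

theorem lift_crit {k : ℕ} {F : Mf × Rk k → ℝ} (hF : IsMorse E6 F) {w : E7 × Rk k} (hw : w.1.2 ≠ 0)
    (h0 : fderiv ℝ (fun w : E7 × Rk k => F (pr w.1, w.2) + (dot w.1.2 w.1.2 - 1) ^ 2) w = 0) :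
    (pr w.1, w.2) ∈ Crit E6 F ∧ Function.Injective (fderiv ℝ (fderiv ℝ
      fun w : E7 × Rk k => F (pr w.1, w.2) + (dot w.1.2 w.1.2 - 1) ^ 2) w) := by
  obtain ⟨i, n, a, b, hpos, hloc⟩ := chart_local hw (mem_chart_source E6 (pr w.1))
  have hk := contDiffAt_kap (Tm (pr w.1)) i n a b hpos
  have hK : ContDiffAt ℝ ∞
      (fun x : E7 × Rk k => (kap (Tm (pr w.1)) i n a b x.1, x.2)) w :=
    (hk.comp w contDiffAt_fst).prodMk contDiffAt_snd
  have hd : ∀ x : E7 × Rk k,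
      fderiv ℝ (fun x : E7 × Rk k => (kap (Tm (pr w.1)) i n a b x.1, x.2)) w x =
        (fderiv ℝ (kap (Tm (pr w.1)) i n a b) w.1 x.1, x.2) := by
    intro x
    have h1 := HasFDerivAt.prodMap w (hk.differentiableAt (by simp)).hasFDerivAt
      (hasFDerivAt_id (𝕜 := ℝ) w.2)
    have h2 : fderiv ℝ (fun x : E7 × Rk k => (kap (Tm (pr w.1)) i n a b x.1, x.2)) w = _ :=
      h1.fderiv
    rw [h2]
    rfl
  have hl : ∀ p : E6 × Rk k, ContDiffAt ℝ ∞ (loc E6 F (pr w.1)) p := fun p =>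
    mmor_smooth hF.1 (u := fun p : E6 × Rk k => sec (Tm (pr w.1)) p.1) (v := fun p => p.2)
      ((contDiff_sec _).comp contDiff_fst).contDiffAt contDiffAt_snd (sec_ne _ _)
  have e : (fun w : E7 × Rk k => F (pr w.1, w.2) + (dot w.1.2 w.1.2 - 1) ^ 2) =ᶠ[𝓝 w]
      fun x => loc E6 F (pr w.1) (kap (Tm (pr w.1)) i n a b x.1, x.2) +
        (dot x.1.2 x.1.2 - 1) ^ 2 := by
    filter_upwards [continuousAt_fst (pos_nhds hpos)] with x hx
    rw [loc, chart_symm, pr_sec_kap _ i n a b hx]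
  have h2 : (2 : WithTop ℕ∞) ≤ ∞ := ENat.LEInfty.out
  rw [e.fderiv_eq] at h0
  have key := mmor_abs (l := loc E6 F (pr w.1))
    (K := fun x : E7 × Rk k => (kap (Tm (pr w.1)) i n a b x.1, x.2))
    (q := fun x : E7 × Rk k => dot x.1.2 x.1.2 - 1) (w := w) (ρ := ((0, w.1.2), 0))
    ((hl _).of_le h2) (hK.of_le h2) (mmor_q.contDiffAt.of_le h2)
    (by rw [mmor_rad]; exact (mul_pos two_pos (dot_pos hw)).ne')
    (by
      rintro ⟨c, ζ⟩
      obtain ⟨x, hx⟩ := kap_surj (Tm (pr w.1)) i n a b hpos c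
      exact ⟨(x, ζ), by rw [hd, hx]⟩)
    (by
      rintro ⟨x, ζ⟩
      rw [hd, Prod.mk_eq_zero, kap_ker _ i n a b hpos]
      constructor
      · rintro ⟨⟨r, h1⟩, h3⟩
        exact ⟨r, Prod.ext (by simpa using h1) (by simpa using h3)⟩
      · rintro ⟨r, h1⟩
        exact ⟨⟨r, by simpa using congrArg Prod.fst h1⟩, by simpa using congrArg Prod.snd h1⟩)
    h0
  beta_reduce at key
  rw [← hloc.self_of_nhds] at key
  refine ⟨key.1, ?_⟩
  rw [e.fderiv.fderiv_eq]
  exact key.2 (hF.2 (pr w.1, w.2) key.1)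

theorem morse_desc (hL : LowerSM) : 17 ≤ stableMorse E6 Mf := by
  classical
  refine le_iInf fun k => le_iInf fun F => le_iInf fun hF => le_iInf fun hQ => ?_
  by_cases hfin : (Crit E6 F).Finite
  swap
  · rw [Set.Infinite.encard_eq hfin]
    exact le_top
  obtain ⟨Q, R, hQ1, hR, hQ2⟩ := hQ
  have hU : IsUp (fun w : E7 × Rk k => F (pr w.1, w.2)) Q R :=
    ⟨fun w hw => (mmor_smooth hF.1 contDiffAt_fst contDiffAt_snd hw).contDiffWithinAt,
      fun z z' ζ hz h => by simp only [h.pr_eq hz], hQ1, hR, fun z ζ _ h => hQ2 _ ζ h,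
      fun w hw h => (lift_crit hF hw h).2⟩
  have h1 := hL k _ Q R hU (hfin.toFinset.image fun a => (lf a.1, a.2)) fun w hw h =>
    ⟨(lf (pr w.1), w.2), Finset.mem_image.2
      ⟨(pr w.1, w.2), hfin.mem_toFinset.2 (lift_crit hF hw h).1, rfl⟩, rel_lf hw, rfl⟩
  rw [hfin.encard_eq_coe_toFinset_card]
  exact_mod_cast h1.trans Finset.card_image_le

end

end Vale.Agent.P265
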