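import Vale.Agent.P265.M.Alg

/-!
P265 M/Smooth. The smooth structure and the differential of the projection.
-/

namespace Vale.Agent.P265

open scoped Manifold ContDiff Topology
open Set Filter

noncomputable section

instance : IsManifold 𝓘(ℝ, E6) ∞ Mf := by
  refine isManifold_of_contDiffOn _ _ _ fun e e' he he' => ?_
  obtain ⟨m, rfl⟩ := atlas_eq he
  obtain ⟨m', rfl⟩ := atlas_eq he'
  intro v hv
  obtain ⟨i, n, a, b, h1, h2⟩ := chart_local (m := m') (sec_ne (Tm m) v) hv.1.2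
  have h3 := (contDiffAt_kap _ i n a b h1).comp v (contDiff_sec (Tm m)).contDiffAt
  exact (h3.congr_of_eventuallyEq
    ((contDiff_sec (Tm m)).continuous.continuousAt.eventually h2)).contDiffWithinAt

theorem contMDiffAt_pr {z : E7} (hz : z.2 ≠ 0) : ContMDiffAt 𝓘(ℝ, E7) 𝓘(ℝ, E6) ∞ pr z := by
  obtain ⟨i, n, a, b, h1, h2⟩ := chart_local (m := pr z) hz (mem_chart_source E6 _)
  refine contMDiffAt_iff_target.2 ⟨continuousAt_pr hz, ?_⟩
  exact (contDiffAt_kap _ i n a b h1).contMDiffAt.congr_of_eventuallyEq h2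

theorem contMDiffAt_sig (m : Mf) : ContMDiffAt 𝓘(ℝ, E6) 𝓘(ℝ, E7) ∞ (sig m) m := by
  exact (contDiff_sec (Tm m)).contMDiff.contMDiffAt.comp m
    (contMDiffAt_extChartAt (I := 𝓘(ℝ, E6)) (x := m))

theorem pr_sig_nhds (m : Mf) : ∀ᶠ x in 𝓝 m, pr (sig m x) = x := by
  filter_upwards [chart_source_mem_nhds E6 m] with x hx using pr_sig hx

theorem dpr_local {z : E7} (hz : z.2 ≠ 0) : ∃ i n a b : ℤ, 0 < ((Tm (pr z)).symm z.2).1 ∧
    (∀ᶠ z' in 𝓝 z, chartAt E6 (pr z) (pr z') = kap (Tm (pr z)) i n a b z') ∧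
      dpr z = fderiv ℝ (kap (Tm (pr z)) i n a b) z := by
  obtain ⟨i, n, a, b, h1, h2⟩ := chart_local (m := pr z) hz (mem_chart_source E6 _)
  refine ⟨i, n, a, b, h1, h2, ?_⟩
  rw [dpr, ((contMDiffAt_pr hz).mdifferentiableAt (by simp)).mfderiv]
  simp only [writtenInExtChartAt, mfld_simps, fderivWithin_univ]
  exact Filter.EventuallyEq.fderiv_eq h2

theorem dpr_surj {z : E7} (hz : z.2 ≠ 0) : Function.Surjective (dpr z) := by
  obtain ⟨i, n, a, b, h1, -, h3⟩ := dpr_local hz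
  rw [h3]
  exact kap_surj _ i n a b h1

theorem dpr_ker {z : E7} (hz : z.2 ≠ 0) {a : E7} : dpr z a = 0 ↔ ∃ r : ℝ, a = (0, r • z.2) := by
  obtain ⟨i, n, a, b, h1, -, h3⟩ := dpr_local hz
  rw [h3]
  exact kap_ker _ i n a b h1

theorem bet_dpr (c : ℝ) {z : E7} (hz : z.2 ≠ 0) (a b : E7) :
    bet c (pr z) (dpr z a) (dpr z b) = om7 c z a b := by
  obtain ⟨i, n, j, k, h1, h2, h3⟩ := dpr_local hz
  obtain ⟨r, hr⟩ := fderiv_kap _ i n j k h1 a
  obtain ⟨r', hr'⟩ := fderiv_kap _ i n j k h1 b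
  rw [bet, sig, h2.self_of_nhds, sec_kap _ i n j k h1, h3, hr, hr']
  exact om7_inv c z i n j k (inv_pos.2 h1) a b r r'

/-- Chain rule for a map into the space upstairs followed by the projection. -/
theorem mfderiv_pr_comp {A : Type} [NormedAddCommGroup A] [NormedSpace ℝ A] {g : A → E7} {x : A}
    (hg : DifferentiableAt ℝ g x) (hz : (g x).2 ≠ 0) (v : A) :
    (mfderiv 𝓘(ℝ, A) 𝓘(ℝ, E6) (fun y => pr (g y)) x v : E6) = dpr (g x) (fderiv ℝ g x v) := by
  have h := mfderiv_comp (I' := 𝓘(ℝ, E7)) x ((contMDiffAt_pr hz).mdifferentiableAt (by simp))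
    hg.mdifferentiableAt
  rw [mfderiv_eq_fderiv] at h
  exact DFunLike.congr_fun h v

end

end Vale.Agent.P265
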