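import Vale.Agent.P265.M.Defs

/-!
P265 M/Top (TASK). Helper names start with mtop_.
`t2_Mf`: the quotient map `Quotient.mk rel7` is an open quotient map (saturation of an open set: use `isOpen_Mf`; `Rel7 z w` with `w` in the open set persists for `z'` near `z` with the same group element and the same scalar),
so it is enough (`t2_iff_isClosed_diagonal`, `IsOpenQuotientMap.prodMap`, `IsQuotientMap.isClosed_preimage`) that `{p | Rel7 p.1.1 p.2.1}` is closed. With sequences (`IsSeqClosed.isClosed`): a convergent sequence of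
integers is eventually constant (apply to `m`, `n`, then `a`, `b`); for nonzero `y, y'`, `(∃ c > 0, y' = c • y) ↔ ‖y‖ • y' = ‖y'‖ • y`.
`compact_Mf`: `univ = pr '' (closedBall 0 1 ×ˢ sphere 0 1)` (choose `m = -⌊s⌋`, `n = -⌊t⌋`, then `a`, `b` by floors; `Int.fract`), `IsCompact.image_of_continuousOn`, `continuousOn_pr`.
`connected_Mf`: `univ = pr '' (univ ×ˢ {0}ᶜ)`, `isConnected_compl_singleton_of_one_lt_rank`, `IsConnected.prod`, `IsConnected.image`.
-/

namespace Vale.Agent.P265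

open scoped Manifold ContDiff Topology
open Set Filter

noncomputable section

theorem mtop_int {k : ℕ → ℤ} {c : ℝ} (h : Tendsto (fun j => (k j : ℝ)) atTop (𝓝 c)) :
    ∃ m : ℤ, ∀ᶠ j in atTop, k j = m := by
  have hc := Int.isClosedEmbedding_coe_real
  obtain ⟨m, rfl⟩ : c ∈ range ((↑) : ℤ → ℝ) :=
    hc.isClosed_range.mem_of_tendsto h (Eventually.of_forall fun j => ⟨k j, rfl⟩)
  have h1 : Tendsto k atTop (𝓝 m) := hc.isEmbedding.tendsto_nhds_iff.2 h
  rw [nhds_discrete, tendsto_pure] at h1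
  exact ⟨m, h1⟩

theorem mtop_rel4 : IsClosed {p : R4 × R4 | Rel4 p.1 p.2} := by
  refine IsSeqClosed.isClosed fun x p hx hp => ?_
  choose m n a b e using hx
  have key : ∀ {k : ℕ → ℤ} {f : R4 × R4 → ℝ}, Continuous f → (∀ᶠ j in atTop, f (x j) = k j) →
      ∃ i : ℤ, ∀ᶠ j in atTop, k j = i := fun hf h =>
    mtop_int (((hf.tendsto p).comp hp).congr' h)
  obtain ⟨m₀, hm⟩ := key (k := m) (f := fun q => q.2.1 - q.1.1) (by fun_prop)
    (Eventually.of_forall fun j => by simp [e j, act])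
  obtain ⟨n₀, hn⟩ := key (k := n) (f := fun q => q.2.2.1 - q.1.2.1) (by fun_prop)
    (Eventually.of_forall fun j => by simp [e j, act])
  have hc : Continuous fun q : R4 × R4 => act m₀ n₀ 0 0 q.1 :=
    (contDiff_act m₀ n₀ 0 0).continuous.comp continuous_fst
  obtain ⟨a₀, ha⟩ := key (k := a) (f := fun q => q.2.2.2.1 - (act m₀ n₀ 0 0 q.1).2.2.1)
    (by fun_prop) (by
      filter_upwards [hm, hn] with j h1 h2
      simp [e j, act, h1, h2])
  obtain ⟨b₀, hb⟩ := key (k := b) (f := fun q => q.2.2.2.2 - (act m₀ n₀ 0 0 q.1).2.2.2)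
    (by fun_prop) (by
      filter_upwards [hm, hn] with j h1 h2
      simp [e j, act, h1, h2])
  refine ⟨m₀, n₀, a₀, b₀, tendsto_nhds_unique_of_eventuallyEq
    ((continuous_snd.tendsto p).comp hp)
    ((((contDiff_act m₀ n₀ a₀ b₀).continuous.comp continuous_fst).tendsto p).comp hp) ?_⟩
  filter_upwards [hm, hn, ha, hb] with j h1 h2 h3 h4
  simp only [Function.comp, e j, h1, h2, h3, h4]

theorem mtop_ray {y y' : R3} (hy : y ≠ 0) (hy' : y' ≠ 0) :
    (∃ c : ℝ, 0 < c ∧ y' = c • y) ↔ ‖y‖ • y' = ‖y'‖ • y := by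
  have h1 := norm_pos_iff.2 hy
  have h2 := norm_pos_iff.2 hy'
  constructor
  · rintro ⟨c, hc, rfl⟩
    rw [norm_smul, Real.norm_of_nonneg hc.le, smul_smul, mul_comm]
  · intro h
    refine ⟨‖y‖⁻¹ * ‖y'‖, by positivity, ?_⟩
    rw [← smul_smul, ← h, inv_smul_smul₀ h1.ne']

theorem mtop_open : IsOpenQuotientMap fun z : {z : E7 // z.2 ≠ 0} => pr z.1 := by
  refine ⟨fun m => ⟨⟨lf m, lf_ne m⟩, pr_lf m⟩,
    continuousOn_pr.comp_continuous continuous_subtype_val fun z => z.2, fun U hU => ?_⟩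
  obtain ⟨V, hV, rfl⟩ := isOpen_induced_iff.1 hU
  refine isOpen_Mf (isOpen_iff_mem_nhds.2 ?_)
  rintro z ⟨hz, w, hw, e⟩
  obtain ⟨⟨m, n, a, b, h1⟩, c, hc, h2⟩ := (pr_eq hz w.2).1 e.symm
  have hθ : Continuous fun z' : E7 => ((act m n a b z'.1, c • z'.2) : E7) :=
    ((contDiff_act m n a b).continuous.comp continuous_fst).prodMk (by fun_prop)
  have h3 : ((act m n a b z.1, c • z.2) : E7) ∈ V := by
    rw [← h1, ← h2]
    exact hw
  filter_upwards [Om_nhds hz, hθ.continuousAt (hV.mem_nhds h3)] with z' h4 h5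
  have h6 : Rel7 z' (act m n a b z'.1, c • z'.2) := ⟨⟨m, n, a, b, rfl⟩, c, hc, rfl⟩
  exact ⟨h4, ⟨_, h6.ne h4⟩, h5, (h6.pr_eq h4).symm⟩

theorem mtop_fund (u : R4) : ∃ m n a b : ℤ, ‖act m n a b u‖ ≤ 1 := by
  have h : ∀ x : ℝ, ‖x + (-⌊x⌋ : ℤ)‖ ≤ 1 := fun x => by
    rw [Real.norm_eq_abs, abs_le]
    push_cast
    constructor <;> linarith [Int.floor_le x, Int.lt_floor_add_one x]
  exact ⟨_, _, _, _, norm_prod_le_iff.2 ⟨h _, norm_prod_le_iff.2 ⟨h _,
    norm_prod_le_iff.2 ⟨h _, h _⟩⟩⟩⟩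

theorem t2_Mf : T2Space Mf := by
  rw [t2Space_iff_of_isOpenQuotientMap mtop_open]
  have e : {q : {z : E7 // z.2 ≠ 0} × {z : E7 // z.2 ≠ 0} | pr q.1.1 = pr q.2.1} =
      (fun q => (q.1.1.1, q.2.1.1)) ⁻¹' {p : R4 × R4 | Rel4 p.1 p.2} ∩
        {q | ‖q.1.1.2‖ • q.2.1.2 = ‖q.2.1.2‖ • q.1.1.2} := by
    ext q
    exact (pr_eq q.1.2 q.2.2).trans (and_congr Iff.rfl (mtop_ray q.1.2 q.2.2))
  rw [e]
  exact (mtop_rel4.preimage (by fun_prop)).inter (isClosed_eq (by fun_prop) (by fun_prop))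

theorem compact_Mf : CompactSpace Mf := by
  have h : IsCompact (pr '' (Metric.closedBall (0 : R4) 1 ×ˢ Metric.sphere (0 : R3) 1)) :=
    ((isCompact_closedBall _ _).prod (isCompact_sphere _ _)).image_of_continuousOn
      (continuousOn_pr.mono fun z hz => ne_zero_of_mem_sphere one_ne_zero ⟨z.2, hz.2⟩)
  refine ⟨h.of_isClosed_subset isClosed_univ fun x _ => ?_⟩
  obtain ⟨m, n, a, b, h1⟩ := mtop_fund (lf x).1
  have h2 := norm_pos_iff.2 (lf_ne x)
  have h3 : Rel7 (lf x) (act m n a b (lf x).1, ‖(lf x).2‖⁻¹ • (lf x).2) :=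
    ⟨⟨m, n, a, b, rfl⟩, _, inv_pos.2 h2, rfl⟩
  refine ⟨_, ⟨mem_closedBall_zero_iff.2 h1, mem_sphere_zero_iff_norm.2 ?_⟩,
    (h3.pr_eq (lf_ne x)).symm.trans (pr_lf x)⟩
  rw [norm_smul, norm_inv, norm_norm, inv_mul_cancel₀ h2.ne']

theorem connected_Mf : ConnectedSpace Mf := by
  have h1 : 1 < Module.rank ℝ R3 := by
    rw [← Module.finrank_eq_rank]
    simp
  have h := ((isConnected_univ (α := R4)).prod
    (isConnected_compl_singleton_of_one_lt_rank h1 0)).image pr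
      (continuousOn_pr.mono fun z hz => hz.2)
  have e : pr '' ((univ : Set R4) ×ˢ ({0}ᶜ : Set R3)) = univ :=
    eq_univ_of_forall fun x => ⟨lf x, ⟨mem_univ _, lf_ne x⟩, pr_lf x⟩
  rw [connectedSpace_iff_univ, ← e]
  exact h

end

end Vale.Agent.P265
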